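import Vale.Agent.P133.H832.BuiltIB
import Mathlib.Topology.TietzeExtension
import Mathlib.Topology.Compactification.OnePoint.Basic
import Mathlib.Topology.UrysohnsLemma

/-! P133 (helper486): restriction of a field over a compact Hausdorff space to a closed set, and
the two ideals given by two disjoint open sets. -/

open scoped ComplexOrder

namespace Vale.Agent.P133.H486

open Vale.Agent.P133 Vale.Agent.P133.Statement Vale.Agent.P133.H832 Vale.Agent.P133F
  Vale.Agent.P133.H681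

universe u

/-- a homomorphism through a quotient map -/
theorem exists_factor {A C D : Type u} [NonUnitalCStarAlgebra A] [NonUnitalCStarAlgebra C]
    [NonUnitalCStarAlgebra D] (φ : A →⋆ₙₐ[ℂ] C) (hφ : Function.Surjective φ)
    (ψ : A →⋆ₙₐ[ℂ] D) (h : ∀ z, φ z = 0 → ψ z = 0) :
    ∃ ρ : C →⋆ₙₐ[ℂ] D, ∀ z, ρ (φ z) = ψ z := by
  have key : ∀ z w, φ z = φ w → ψ z = ψ w := fun z w hzw => by
    have h1 := h (z - w) (by rw [map_sub, hzw, sub_self])
    rwa [map_sub, sub_eq_zero] at h1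
  choose s hs using hφ
  refine ⟨{ toFun := fun c => ψ (s c)
            map_smul' := fun c x => ?_
            map_zero' := ?_
            map_add' := fun x y => ?_
            map_mul' := fun x y => ?_
            map_star' := fun x => ?_ }, fun z => key _ _ (hs _)⟩
  · show ψ (s (c • x)) = c • ψ (s x)
    rw [← map_smul]
    exact key _ _ (by rw [map_smul, hs, hs])
  · show ψ (s 0) = 0
    rw [← map_zero ψ]
    exact key _ _ (by rw [hs, map_zero])
  · show ψ (s (x + y)) = ψ (s x) + ψ (s y)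
    rw [← map_add]
    exact key _ _ (by rw [map_add, hs, hs, hs])
  · show ψ (s (x * y)) = ψ (s x) * ψ (s y)
    rw [← map_mul]
    exact key _ _ (by rw [map_mul, hs, hs, hs])
  · show ψ (s (star x)) = star (ψ (s x))
    rw [← map_star]
    exact key _ _ (by rw [map_star, hs, hs])

section

variable {X : Type u} [TopologicalSpace X] {B : X → Type u} [∀ t, NonUnitalCStarAlgebra (B t)]
  {A : Type u} [NonUnitalCStarAlgebra A]

/-- the elements vanishing on `L` -/
def vanish (π : ∀ t, A →⋆ₙₐ[ℂ] B t) (L : Set X) : Submodule ℂ A where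
  carrier := {z | ∀ t ∈ L, π t z = 0}
  zero_mem' := fun t _ => map_zero (π t)
  add_mem' := fun {x y} hx hy t ht => by rw [map_add, hx t ht, hy t ht, add_zero]
  smul_mem' := fun c x hx t ht => by rw [map_smul, hx t ht, smul_zero]

omit [TopologicalSpace X] in
theorem mem_vanish {π : ∀ t, A →⋆ₙₐ[ℂ] B t} {L : Set X} {z : A} :
    z ∈ vanish π L ↔ ∀ t ∈ L, π t z = 0 := Iff.rfl

omit [TopologicalSpace X] in
theorem isClosedIdeal_vanish (π : ∀ t, A →⋆ₙₐ[ℂ] B t) (L : Set X) :
    IsClosedIdeal (vanish π L) := by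
  refine ⟨?_, fun a x hx => ⟨fun t ht => ?_, fun t ht => ?_⟩⟩
  · have h1 : (vanish π L : Set A) = ⋂ t ∈ L, {z | π t z = 0} := by
      ext z
      simp only [SetLike.mem_coe, mem_vanish, Set.mem_iInter, Set.mem_ofPred_eq]
    rw [h1]
    refine isClosed_biInter fun t _ => isClosed_eq ?_ continuous_const
    exact AddMonoidHomClass.continuous_of_bound (π t) 1 fun x => by
      rw [one_mul]; exact NonUnitalStarAlgHom.norm_apply_le (π t) x
  · rw [map_mul, hx t ht, mul_zero]
  · rw [map_mul, hx t ht, zero_mul]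

end

section

variable {X : Type u} [TopologicalSpace X] [LocallyCompactSpace X] [T2Space X]
  {B : X → Type u} [∀ t, NonUnitalCStarAlgebra (B t)]
  {A : Type u} [NonUnitalCStarAlgebra A] [PartialOrder A] [StarOrderedRing A]
  {π : ∀ t, A →⋆ₙₐ[ℂ] B t}

/-- restriction to a compact set -/
theorem exists_restrict_lc (hπ : FieldData π) {L : Set X} (hL : IsCompact L) :
    ∃ (C : Type u) (_ : NonUnitalCStarAlgebra C) (_ : PartialOrder C) (_ : StarOrderedRing C)
      (φ : A →⋆ₙₐ[ℂ] C) (ρ : ∀ t : L, C →⋆ₙₐ[ℂ] B t), Function.Surjective φ ∧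
      (∀ z, φ z = 0 ↔ ∀ t ∈ L, π t z = 0) ∧ (∀ (t : L) (z : A), ρ t (φ z) = π t z) ∧
      FieldData ρ := by
  obtain ⟨C, i1, i2, i3, φ, hφ, hk⟩ := (isClosedIdeal_vanish π L).quot
  have hk' : ∀ z, φ z = 0 ↔ ∀ t ∈ L, π t z = 0 := hk
  have h1 : ∀ t : L, ∃ ρ : C →⋆ₙₐ[ℂ] B t, ∀ z, ρ (φ z) = π t z := fun t =>
    exists_factor φ hφ (π t) fun z hz => (hk' z).1 hz t t.2
  choose ρ hρ using h1
  refine ⟨C, i1, i2, i3, φ, ρ, hφ, hk', hρ, ?_, ?_, ?_, ?_⟩
  · intro t b
    obtain ⟨a, ha⟩ := hπ.surj t b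
    exact ⟨φ a, (hρ t a).trans ha⟩
  · intro c r hr hc
    obtain ⟨z, rfl⟩ := hφ c
    refine le_of_forall_pos_le_add fun ε hε => ?_
    have hK : IsCompact {t | r + ε ≤ ‖π t z‖} := hπ.cpt z (r + ε) (by linarith)
    have hd : Disjoint {t | r + ε ≤ ‖π t z‖} L := by
      rw [Set.disjoint_left]
      intro t ht htL
      have h2 := hc ⟨t, htL⟩
      rw [hρ] at h2
      have h3 : r + ε ≤ ‖π t z‖ := ht
      have h4 : ‖π t z‖ ≤ r := h2
      linarith
    obtain ⟨f, hf0, hf1, hf⟩ := exists_continuous_zero_one_of_isCompact hK hL.isClosed hd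
    obtain ⟨z', hz'⟩ := hπ.mul f (fun t => ⟨(hf t).1, (hf t).2⟩) z
    have h2 : φ z' = φ z := by
      rw [← sub_eq_zero, ← map_sub, hk']
      intro t ht
      rw [map_sub, hz', hf1 ht]
      simp
    have h3 : ‖z'‖ ≤ r + ε := by
      refine hπ.norm z' (r + ε) (by linarith) fun t => ?_
      rw [hz', norm_smul, Complex.norm_real, Real.norm_of_nonneg (hf t).1]
      by_cases ht : r + ε ≤ ‖π t z‖
      · rw [hf0 ht]
        simp only [Pi.zero_apply, zero_mul]
        linarith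
      · have h4 := (not_le.1 ht).le
        have h5 := (hf t).2
        have h6 := (hf t).1
        calc f t * ‖π t z‖ ≤ 1 * ‖π t z‖ := mul_le_mul_of_nonneg_right h5 (norm_nonneg _)
          _ ≤ r + ε := by rw [one_mul]; exact h4
    rw [← h2]
    exact (NonUnitalStarAlgHom.norm_apply_le φ z').trans h3
  · intro c r hr
    obtain ⟨z, rfl⟩ := hφ c
    have h2 : {t : L | r ≤ ‖ρ t (φ z)‖} = Subtype.val ⁻¹' {t : X | r ≤ ‖π t z‖} := by
      ext t
      simp only [Set.mem_ofPred_eq, Set.mem_preimage, hρ]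
    rw [h2]
    have : CompactSpace L := isCompact_iff_compactSpace.1 hL
    exact ((hπ.cpt z r hr).isClosed.preimage continuous_subtype_val).isCompact
  · intro f hf c
    obtain ⟨z, rfl⟩ := hφ c
    have : CompactSpace L := isCompact_iff_compactSpace.1 hL
    have he : Topology.IsClosedEmbedding (fun t : L => ((t : X) : OnePoint X)) :=
      Continuous.isClosedEmbedding
        (OnePoint.continuous_coe.comp continuous_subtype_val)
        (OnePoint.coe_injective.comp Subtype.val_injective)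
    obtain ⟨g', hg', hgf'⟩ := ContinuousMap.exists_extension_forall_mem_of_isClosedEmbedding f
      (t := Set.Icc (0 : ℝ) 1) (fun t => hf t) ⟨0, by simp⟩ he
    let g : C(X, ℝ) := ⟨fun t => g' (t : OnePoint X), g'.continuous.comp OnePoint.continuous_coe⟩
    have hg : ∀ t, g t ∈ Set.Icc (0 : ℝ) 1 := fun t => hg' t
    have hgf : ∀ t : L, g t = f t := fun t => congrFun hgf' t
    obtain ⟨z', hz'⟩ := hπ.mul g (fun t => hg t) z
    refine ⟨φ z', fun t => ?_⟩
    rw [hρ, hρ, hz']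
    rw [hgf]

/-- the ideals of two disjoint open sets -/
theorem ker_part_lc (hπ : FieldData π) {U V : Set X} (hU : IsOpen U) (hV : IsOpen V)
    (hUV : Disjoint U V) : ∃ I₁ I₂ : Submodule ℂ A, IsClosedIdeal I₁ ∧ IsClosedIdeal I₂ ∧
      (∀ z, z ∈ I₁ ↔ ∀ t ∉ U, π t z = 0) ∧ (∀ z, z ∈ I₂ ↔ ∀ t ∉ V, π t z = 0) ∧
      (∀ z ∈ I₁, z ∈ I₂ → z = 0) ∧
      ∀ z, z ∈ (I₁ ⊔ I₂).topologicalClosure ↔ ∀ t, t ∉ U → t ∉ V → π t z = 0 := by
  refine ⟨vanish π Uᶜ, vanish π Vᶜ, isClosedIdeal_vanish π _, isClosedIdeal_vanish π _,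
    fun z => Iff.rfl, fun z => Iff.rfl, fun z h1 h2 => ?_, fun z => ⟨fun hz => ?_, fun hz => ?_⟩⟩
  · have h3 : ‖z‖ ≤ 0 := by
      refine hπ.norm z 0 le_rfl fun t => ?_
      by_cases ht : t ∈ U
      · rw [h2 t (Set.disjoint_left.1 hUV ht), norm_zero]
      · rw [h1 t ht, norm_zero]
    exact norm_le_zero_iff.1 h3
  · have h1 : (vanish π Uᶜ ⊔ vanish π Vᶜ).topologicalClosure ≤ vanish π (U ∪ V)ᶜ := by
      refine Submodule.topologicalClosure_minimal _ (sup_le ?_ ?_)
        (isClosedIdeal_vanish π _).1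
      · exact fun w hw t ht => hw t fun h => ht (Or.inl h)
      · exact fun w hw t ht => hw t fun h => ht (Or.inr h)
    exact fun t hU hV => h1 hz t fun h => h.elim hU hV
  · change z ∈ closure ((vanish π Uᶜ ⊔ vanish π Vᶜ : Submodule ℂ A) : Set A)
    refine Metric.mem_closure_iff.2 fun ε hε => ?_
    have hK : IsCompact {t | ε / 2 ≤ ‖π t z‖} := hπ.cpt z (ε / 2) (by positivity)
    have hKU : ∀ t, ε / 2 ≤ ‖π t z‖ → t ∈ U ∨ t ∈ V := fun t ht => by
      by_contra hcon
      rw [not_or] at hcon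
      rw [hz t hcon.1 hcon.2, norm_zero] at ht
      linarith
    obtain ⟨f, hf1, hf0, -, hf⟩ := exists_continuous_one_zero_of_isCompact
      (hK.inter_right hV.isClosed_compl) hU.isClosed_compl (by
        rw [Set.disjoint_left]
        rintro t ⟨htK, htV⟩ htU
        exact (hKU t htK).elim htU htV)
    obtain ⟨g, hg1, hg0, -, hg⟩ := exists_continuous_one_zero_of_isCompact
      (hK.inter_right hU.isClosed_compl) hV.isClosed_compl (by
        rw [Set.disjoint_left]
        rintro t ⟨htK, htU⟩ htV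
        exact (hKU t htK).elim htU htV)
    obtain ⟨z1, hz1⟩ := hπ.mul f (fun t => ⟨(hf t).1, (hf t).2⟩) z
    obtain ⟨z2, hz2⟩ := hπ.mul g (fun t => ⟨(hg t).1, (hg t).2⟩) z
    refine ⟨z1 + z2, Submodule.add_mem_sup (fun t ht => ?_) (fun t ht => ?_), ?_⟩
    · rw [hz1, hf0 ht]; simp
    · rw [hz2, hg0 ht]; simp
    rw [dist_eq_norm]
    refine lt_of_le_of_lt (hπ.norm _ (ε / 2) (by positivity) fun t => ?_) (half_lt_self hε)
    have e1 : π t (z - (z1 + z2)) = ((1 - (f t + g t) : ℝ) : ℂ) • π t z := by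
      rw [map_sub, map_add, hz1, hz2]
      push_cast
      rw [sub_smul, add_smul, one_smul]
    rw [e1, norm_smul, Complex.norm_real]
    by_cases ht : ε / 2 ≤ ‖π t z‖
    · have h2 : f t + g t = 1 := by
        rcases hKU t ht with h | h
        · have h3 : t ∉ V := Set.disjoint_left.1 hUV h
          have h4 : f t = 1 := hf1 ⟨ht, h3⟩
          have h5 : g t = 0 := hg0 h3
          rw [h4, h5, add_zero]
        · have h3 : t ∉ U := Set.disjoint_right.1 hUV h
          have h4 : g t = 1 := hg1 ⟨ht, h3⟩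
          have h5 : f t = 0 := hf0 h3
          rw [h4, h5, zero_add]
      rw [h2, sub_self, norm_zero, zero_mul]
      positivity
    · have h2 := (not_le.1 ht).le
      have h3 : ‖(1 - (f t + g t) : ℝ)‖ ≤ 1 := by
        rw [Real.norm_eq_abs, abs_le]
        have := (hf t).1
        have := (hf t).2
        have := (hg t).1
        have := (hg t).2
        constructor <;> linarith
      calc ‖(1 - (f t + g t) : ℝ)‖ * ‖π t z‖ ≤ 1 * ‖π t z‖ :=
            mul_le_mul_of_nonneg_right h3 (norm_nonneg _)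
        _ ≤ ε / 2 := by rw [one_mul]; exact h2

end

section

variable {X : Type u} [TopologicalSpace X] [CompactSpace X] [T2Space X]
  {B : X → Type u} [∀ t, NonUnitalCStarAlgebra (B t)]
  {A : Type u} [NonUnitalCStarAlgebra A] [PartialOrder A] [StarOrderedRing A]
  {π : ∀ t, A →⋆ₙₐ[ℂ] B t}

/-- restriction to a closed set -/
theorem exists_restrict (hπ : FieldData π) {L : Set X} (hL : IsClosed L) :
    ∃ (C : Type u) (_ : NonUnitalCStarAlgebra C) (_ : PartialOrder C) (_ : StarOrderedRing C)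
      (φ : A →⋆ₙₐ[ℂ] C) (ρ : ∀ t : L, C →⋆ₙₐ[ℂ] B t), Function.Surjective φ ∧
      (∀ z, φ z = 0 ↔ ∀ t ∈ L, π t z = 0) ∧ (∀ (t : L) (z : A), ρ t (φ z) = π t z) ∧
      FieldData ρ :=
  exists_restrict_lc hπ hL.isCompact

/-- the ideals of two disjoint open sets -/
theorem ker_part (hπ : FieldData π) {U V : Set X} (hU : IsOpen U) (hV : IsOpen V)
    (hUV : Disjoint U V) : ∃ I₁ I₂ : Submodule ℂ A, IsClosedIdeal I₁ ∧ IsClosedIdeal I₂ ∧
      (∀ z, z ∈ I₁ ↔ ∀ t ∉ U, π t z = 0) ∧ (∀ z, z ∈ I₂ ↔ ∀ t ∉ V, π t z = 0) ∧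
      (∀ z ∈ I₁, z ∈ I₂ → z = 0) ∧
      ∀ z, z ∈ (I₁ ⊔ I₂).topologicalClosure ↔ ∀ t, t ∉ U → t ∉ V → π t z = 0 :=
  ker_part_lc hπ hU hV hUV

end

end Vale.Agent.P133.H486
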