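import Vale.Agent.P133.R2.H695.Defs
import Mathlib.Topology.Compactification.OnePoint.Basic
import Mathlib.Topology.UrysohnsLemma
import Mathlib.Topology.UnitInterval

/-! P133 (helper486): spaces of transfinite inductive dimension: homeomorphic spaces, one point
compactifications, the one point compactification of the sum of all cubes. -/

namespace Vale.Agent.P133.H486

open Vale.Agent.P133.H832 Vale.Agent.P133.H695

universe u

theorem trInd_congr_aux {X : Type u} [TopologicalSpace X] (h : TrInd X) :
    ∀ (Y : Type u) [TopologicalSpace Y] (_ : X ≃ₜ Y), TrInd Y := by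
  induction h with
  | fin X h =>
    intro Y _ e
    obtain ⟨N, p, hp, hinj⟩ := h
    exact TrInd.fin Y ⟨N, p ∘ e.symm, hp.comp e.symm.continuous, hinj.comp e.symm.injective⟩
  | part X K L h hL ih =>
    intro Y _ e
    refine TrInd.part Y K (fun k => e '' L k) ?_ fun k => ih k _ (e.image (L k))
    intro F G hF hG hFG
    obtain ⟨k, U, V, h1, h2, h3, h4, h5, h6⟩ := h (e ⁻¹' F) (e ⁻¹' G)
      (hF.preimage e.continuous) (hG.preimage e.continuous) (hFG.preimage e)
    refine ⟨k, e '' U, e '' V, e.isOpenMap U h1, e.isOpenMap V h2,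
      (Set.disjoint_image_iff e.injective).2 h3, ?_, ?_, ?_⟩
    · rw [← e.image_preimage F]; exact Set.image_mono h4
    · rw [← e.image_preimage G]; exact Set.image_mono h5
    · rw [← Set.image_compl_eq e.bijective, h6, Set.image_union]

theorem _root_.Vale.Agent.P133.H695.TrInd.congr {X Y : Type u} [TopologicalSpace X]
    [TopologicalSpace Y] (e : X ≃ₜ Y) (h : TrInd X) : TrInd Y :=
  trInd_congr_aux h Y e

/-- a compact Hausdorff space in which all compact sets without a given point are in the class -/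
theorem trInd_of_point {X : Type u} [TopologicalSpace X] [CompactSpace X] [T2Space X] (x₀ : X)
    (h : ∀ K : Set X, IsCompact K → x₀ ∉ K → TrInd K) : TrInd X := by
  refine TrInd.part X {L : Set X // IsCompact L ∧ x₀ ∉ L} (fun k => k.1) ?_
    fun k => h k.1 k.2.1 k.2.2
  intro F G hF hG hFG
  have key : ∀ u : C(X, ℝ), Set.EqOn u 0 F → Set.EqOn u 1 G → u x₀ ≠ 1 / 2 →
      ∃ k : {L : Set X // IsCompact L ∧ x₀ ∉ L}, ∃ U V : Set X,
        IsOpen U ∧ IsOpen V ∧ Disjoint U V ∧ F ⊆ U ∧ G ⊆ V ∧ (k.1)ᶜ = U ∪ V := by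
    intro u hu0 hu1 hux
    have hc : Continuous u := u.continuous
    refine ⟨⟨{t | u t = 1 / 2}, (isClosed_eq hc continuous_const).isCompact, hux⟩,
      {t | u t < 1 / 2}, {t | 1 / 2 < u t}, isOpen_lt hc continuous_const,
      isOpen_lt continuous_const hc, ?_, ?_, ?_, ?_⟩
    · rw [Set.disjoint_left]
      intro t h1 h2
      exact lt_asymm (show u t < 1 / 2 from h1) h2
    · intro t ht
      show u t < 1 / 2
      rw [hu0 ht]; norm_num
    · intro t ht
      show 1 / 2 < u t
      rw [hu1 ht]; norm_num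
    · ext t
      exact ⟨fun h1 => lt_or_gt_of_ne h1, fun h1 h2 => by
        have h3 : u t = 1 / 2 := h2
        rcases h1 with h1 | h1
        · exact absurd (show u t < 1 / 2 from h1) (by rw [h3]; exact lt_irrefl _)
        · exact absurd (show 1 / 2 < u t from h1) (by rw [h3]; exact lt_irrefl _)⟩
  by_cases hx : x₀ ∈ F
  · obtain ⟨u, hu0, hu1, -⟩ := exists_continuous_zero_one_of_isClosed hF hG hFG
    refine key u hu0 hu1 ?_
    rw [hu0 hx]; norm_num
  · obtain ⟨u, hu0, hu1, -⟩ := exists_continuous_zero_one_of_isClosed hF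
      (hG.union (isClosed_singleton (x := x₀)))
      (Set.disjoint_union_right.2 ⟨hFG, Set.disjoint_singleton_right.2 hx⟩)
    refine key u hu0 (fun t ht => hu1 (Or.inl ht)) ?_
    rw [hu1 (Or.inr rfl)]; norm_num

theorem trInd_onePoint {X : Type u} [TopologicalSpace X] [LocallyCompactSpace X] [T2Space X]
    (h : ∀ K : Set X, IsCompact K → TrInd K) : TrInd (OnePoint X) := by
  refine trInd_of_point (OnePoint.infty : OnePoint X) fun K hK hx => ?_
  have hr : K ⊆ Set.range ((↑) : X → OnePoint X) := by
    intro t ht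
    rw [← OnePoint.compl_infty]
    intro h1
    exact hx (h1 ▸ ht)
  have hemb : Topology.IsEmbedding ((↑) : X → OnePoint X) :=
    OnePoint.isOpenEmbedding_coe.isEmbedding
  have h1 : IsCompact (((↑) : X → OnePoint X) ⁻¹' K) :=
    (hemb.isInducing.isCompact_preimage_iff hr).2 hK
  exact (h _ h1).congr ((hemb.homeomorphImage _).trans
    (Homeomorph.setCongr (Set.image_preimage_eq_of_subset hr)))

theorem finitelySeparated_cubes (K : Set (Σ n : ℕ, (Fin n → unitInterval))) (hK : IsCompact K) :
    FinitelySeparated K := by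
  have h1 : IsCompact (Sigma.fst '' K) := hK.image (continuous_sigma fun n => continuous_const)
  obtain ⟨m, hm⟩ := (isCompact_iff_finite.1 h1).bddAbove
  have hm' : ∀ x ∈ K, x.1 ≤ m := fun x hx => hm ⟨x, hx, rfl⟩
  let p : (Σ n : ℕ, (Fin n → unitInterval)) → (Fin (m + 1) → ℝ) := fun x =>
    Fin.cons (x.1 : ℝ) (fun i : Fin m => if h : (i : ℕ) < x.1 then ((x.2 ⟨i, h⟩ : unitInterval) : ℝ)
      else 0)
  have hp : Continuous p := by
    refine continuous_pi fun i => ?_
    refine Fin.cases ?_ (fun i => ?_) i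
    · refine continuous_sigma fun n => ?_
      show Continuous (fun _ : Fin n → unitInterval => (n : ℝ))
      exact continuous_const
    · refine continuous_sigma fun n => ?_
      by_cases h : (i : ℕ) < n
      · have h2 : (fun x : Fin n → unitInterval => p ⟨n, x⟩ i.succ) =
            fun x => ((x ⟨i, h⟩ : unitInterval) : ℝ) := by
          funext x
          simp only [p, Fin.cons_succ, dif_pos h]
        show Continuous (fun x : Fin n → unitInterval => p ⟨n, x⟩ i.succ)
        rw [h2]
        exact continuous_subtype_val.comp (continuous_apply _)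
      · have h2 : (fun x : Fin n → unitInterval => p ⟨n, x⟩ i.succ) = fun x => (0 : ℝ) := by
          funext x
          simp only [p, Fin.cons_succ, dif_neg h]
        show Continuous (fun x : Fin n → unitInterval => p ⟨n, x⟩ i.succ)
        rw [h2]
        exact continuous_const
  refine ⟨m + 1, fun x => p x, hp.comp continuous_subtype_val, ?_⟩
  rintro ⟨⟨n, x⟩, hx⟩ ⟨⟨k, y⟩, hy⟩ hxy
  have h2 : (n : ℝ) = k := congrFun hxy 0
  have h3 : n = k := by exact_mod_cast h2
  subst h3
  have h4 : x = y := by
    funext i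
    have hi : (i : ℕ) < m := lt_of_lt_of_le i.2 (hm' _ hx)
    have h5 : p ⟨n, x⟩ (Fin.succ ⟨i, hi⟩) = p ⟨n, y⟩ (Fin.succ ⟨i, hi⟩) := congrFun hxy _
    simp only [p, Fin.cons_succ, dif_pos i.2] at h5
    exact Subtype.ext h5
  rw [Subtype.mk.injEq, h4]

theorem locallyCompactSpace_sigma {ι : Type u} {X : ι → Type u} [∀ i, TopologicalSpace (X i)]
    [∀ i, LocallyCompactSpace (X i)] : LocallyCompactSpace (Σ i, X i) := by
  refine ⟨?_⟩
  rintro ⟨i, x⟩ n hn
  rw [Sigma.nhds_mk, Filter.mem_map] at hn
  obtain ⟨s, hs, hsn, hsc⟩ := local_compact_nhds hn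
  refine ⟨Sigma.mk i '' s, ?_, Set.image_subset_iff.2 hsn, hsc.image continuous_sigmaMk⟩
  rw [Sigma.nhds_mk]
  exact Filter.image_mem_map hs

theorem trInd_cubes : TrInd (OnePoint (Σ n : ℕ, (Fin n → unitInterval))) :=
  have : LocallyCompactSpace (Σ n : ℕ, (Fin n → unitInterval)) := locallyCompactSpace_sigma
  trInd_onePoint fun K hK => TrInd.fin K (finitelySeparated_cubes K hK)

end Vale.Agent.P133.H486
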